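import Mathlib

/-!
Statement-level definitions for the P363 hand-in (self-contained copy).
-/

namespace Vale.Agent.P363S

open MeasureTheory
open scoped ContDiff

/-- Points of space. -/
abbrev Pt := Fin 3 → ℝ

/-- Euclidean norm. -/
noncomputable def nrm (x : Pt) : ℝ := √(∑ k, x k ^ 2)

/-- Wave functions of `N` electrons: spins and positions. -/
abbrev Wave (N : ℕ) := (Fin N → Fin 2) → (Fin N → Pt) → ℂ

/-- Gradients of wave functions: spins, electron, direction, positions. -/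
abbrev Grad (N : ℕ) := (Fin N → Fin 2) → Fin N → Fin 3 → (Fin N → Pt) → ℂ

/-- `f` is square integrable with square integrable weak derivatives `G i k`. -/
def InH1 {N : ℕ} (f : (Fin N → Pt) → ℂ) (G : Fin N → Fin 3 → (Fin N → Pt) → ℂ) : Prop :=
  MemLp f 2 ∧ ∀ i k, MemLp (G i k) 2 ∧ ∀ φ : (Fin N → Pt) → ℝ, ContDiff ℝ ∞ φ →
    HasCompactSupport φ →
    ∫ x, f x * (fderiv ℝ φ x (Pi.single i (Pi.single k 1)) : ℝ) = -∫ x, G i k x * (φ x : ℝ)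

/-- The form domain: Sobolev functions, antisymmetric under simultaneous exchange of positions
and spins. -/
def Dom {N : ℕ} (Ψ : Wave N) (G : Grad N) : Prop :=
  (∀ s, InH1 (Ψ s) (G s)) ∧ ∀ (π : Equiv.Perm (Fin N)) s,
    ∀ᵐ x, Ψ (s ∘ π) (x ∘ π) = (Equiv.Perm.sign π : ℤ) * Ψ s x

/-- Squared norm. -/
noncomputable def normSq {N : ℕ} (Ψ : Wave N) : ℝ := ∑ s, ∫ x, ‖Ψ s x‖ ^ 2

/-- The quadratic form of the Coulomb Hamiltonian; a nucleus is a position and a charge. -/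
noncomputable def formC {N : ℕ} (nuc : List (Pt × ℕ)) (Ψ : Wave N) (G : Grad N) : ℝ :=
  ∑ s, ((1 / 2) * (∑ i, ∑ k, ∫ x, ‖G s i k x‖ ^ 2) -
    (∑ i, (nuc.map fun p => (p.2 : ℝ) * ∫ x, ‖Ψ s x‖ ^ 2 / nrm (x i - p.1)).sum) +
    ∑ i, ∑ j, if i < j then ∫ x, ‖Ψ s x‖ ^ 2 / nrm (x i - x j) else 0)

/-- The quadratic form of the noninteracting Hamiltonian `H_s(v)`. -/
noncomputable def formS {N : ℕ} (v : Pt → ℝ) (Ψ : Wave N) (G : Grad N) : ℝ :=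
  ∑ s, ((1 / 2) * (∑ i, ∑ k, ∫ x, ‖G s i k x‖ ^ 2) + ∑ i, ∫ x, v (x i) * ‖Ψ s x‖ ^ 2)

/-- Normalised ground states: normalised minimisers of the form `Q` on the form domain. -/
def IsGround {N : ℕ} (Q : Wave N → Grad N → ℝ) (Ψ : Wave N) : Prop :=
  ∃ G, Dom Ψ G ∧ normSq Ψ = 1 ∧ ∀ Φ H, Dom Φ H → normSq Φ = 1 → Q Ψ G ≤ Q Φ H

/-- The class `L^{3/2} + L^∞` of real potentials. -/
def InV (v : Pt → ℝ) : Prop :=
  ∃ v₁ v₂ : Pt → ℝ, MemLp v₁ (3 / 2) ∧ MemLp v₂ ⊤ ∧ ∀ x, v x = v₁ x + v₂ x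

/-- The spin-summed one-body density of a state of `n + 1` electrons. -/
noncomputable def dens {n : ℕ} (Ψ : Wave (n + 1)) (x : Pt) : ℝ :=
  ∑ s, ∑ i : Fin (n + 1), ∫ y : Fin n → Pt, ‖Ψ s (i.insertNth x y)‖ ^ 2

/-- `ρ` is the density of a mixture of normalised `(n + 1)`-electron ground states of `H_s(v)` for
some `v` in `L^{3/2} + L^∞`. -/
def Repr (n : ℕ) (ρ : Pt → ℝ) : Prop :=
  ∃ v, InV v ∧ ∃ (p : ℕ → ℝ) (Φ : ℕ → Wave (n + 1)), (∀ k, 0 ≤ p k) ∧ HasSum p 1 ∧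
    (∀ k, IsGround (formS v) (Φ k)) ∧ ∀ᵐ x, ρ x = ∑' k, p k * dens (Φ k) x

end Vale.Agent.P363S
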